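import Vale.Agent.Lib.P064D.B

namespace Vale.Agent.Results.P064.BoundedDegree

open Vale.Agent.Lib.P064
open Vale.Agent.Lib.P064D

/-- Let `Δ = H.maxDegree`. If every subgraph of `H` has expected count at least `1/2` in `G(n,q)`,
then `N(H,F) ≤ E N(G(n, min(1, 180 Δ q)), F)` for every subgraph `F` of `H`; consequently
`p̃_E(n,H) ≤ 180 Δ · p_E(n,H)`. No logarithm, no symmetry and no condition on `F`. -/
theorem result :
    ∀ (n : ℕ) (V : Type) [Fintype V] (H : SimpleGraph V) [DecidableRel H.Adj],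
      Fintype.card V ≤ n → H ≠ ⊥ →
      (∀ q : ℝ, 0 ≤ q → q ≤ 1 → (∀ F : H.Subgraph, (1 : ℝ) / 2 ≤ expCount n q F.coe) →
        ∀ F : H.Subgraph, (H.copyCount F.coe : ℝ)
          ≤ expCount n (min 1 (180 * (H.maxDegree : ℝ) * q)) F.coe) ∧
      pTilde n H ≤ 180 * (H.maxDegree : ℝ) * pE n H := by
  intro n V _ H _ hV hH
  have hD : DegLe H H.maxDegree := by
    intro v S hS
    have h1 : S ⊆ H.neighborFinset v := by
      intro w hw
      exact (SimpleGraph.mem_neighborFinset H v w).2 (hS w hw)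
    have h2 := Finset.card_le_card h1
    rw [SimpleGraph.card_neighborFinset_eq_degree] at h2
    exact h2.trans (H.degree_le_maxDegree v)
  refine ⟨?_, deg_tilde H hV hH hD⟩
  intro q hq0 hq1 hqF F
  exact deg_pointwise H hV hH hD hq0 hq1 hqF F

end Vale.Agent.Results.P064.BoundedDegree
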