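import Vale.Agent.Lib.P064O.B3

namespace Vale.Agent.Results.P064.EdgeOrbits

open Vale.Agent.Lib.P064
open Vale.Agent.Lib.P064F
open Vale.Agent.Lib.P064O

/-- Let `r = edgeOrbitCount H` be the number of orbits of the automorphism group of `H` on the edges
of `H`. If every subgraph of `H` has expected count at least `1/2` in `G(n,q)`, then
`N(H,F) ≤ E N(G(n, min(1, 240 r q)), F)` for every subgraph `F` of `H`; consequently
`p̃_E(n,H) ≤ 240 r · p_E(n,H)`. No logarithm, and no condition on the sizes of the orbits. -/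
theorem result :
    ∀ (n : ℕ) (V : Type) [Fintype V] (H : SimpleGraph V), Fintype.card V ≤ n → H ≠ ⊥ →
      (∀ q : ℝ, 0 ≤ q → q ≤ 1 → (∀ F : H.Subgraph, (1 : ℝ) / 2 ≤ expCount n q F.coe) →
        ∀ F : H.Subgraph, (H.copyCount F.coe : ℝ)
          ≤ expCount n (min 1 (240 * (edgeOrbitCount H : ℝ) * q)) F.coe) ∧
      pTilde n H ≤ 240 * (edgeOrbitCount H : ℝ) * pE n H := by
  intro n V _ H hV hH
  refine ⟨?_, orbit_tilde H hV hH⟩
  intro q hq0 hq1 hqF F
  exact orbit_pointwise H hV hH hq0 hq1 hqF F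

end Vale.Agent.Results.P064.EdgeOrbits
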