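import Vale.Agent.Lib.P064G.WrapP

namespace Vale.Agent.Results.P064.FlatCopies

open Vale.Agent.Lib.P064
open Vale.Agent.Lib.P064F
open Vale.Agent.Lib.P064G

/-- A flatness criterion, with no symmetry assumption on `H`: suppose that for every graph `F`
without isolated vertices and every edge `h` of `H`, the number of labelled copies of `F` in `H`
whose image uses `h` is at most `Lam * e(F) / e(H)` times the number of all labelled copies of `F`
in `H`. Then, with `C = 4000000 * Lam ^ 2`: if every subgraph of `H` has expected count at least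
`1/2` in `G(n,q)`, then `N(H,F) ≤ E N(G(n, min(1, C q)), F)` for every subgraph `F` of `H`, and
consequently `p̃_E(n,H) ≤ C · p_E(n,H)`. -/
theorem result :
    ∀ Lam : ℕ, 1 ≤ Lam → ∀ n : ℕ, 2 ≤ n → ∀ (V : Type) [Fintype V]
      (H : SimpleGraph V), Fintype.card V ≤ n → H ≠ ⊥ → Flat H Lam →
        (∀ q : ℝ, 0 ≤ q → q ≤ 1 → (∀ F : H.Subgraph, (1 : ℝ) / 2 ≤ expCount n q F.coe) →
          ∀ F : H.Subgraph, (H.copyCount F.coe : ℝ)
            ≤ expCount n (min 1 (4000000 * (Lam : ℝ) ^ 2 * q)) F.coe) ∧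
        pTilde n H ≤ 4000000 * (Lam : ℝ) ^ 2 * pE n H := by
  intro Lam hLam n hn V _ H hV hH hF
  refine ⟨?_, poly_tilde hn H hV hH hF hLam⟩
  intro q hq0 hq1 hqF F
  exact poly_pointwise hn H hV hH hF hLam hq0 hq1 hqF F

end Vale.Agent.Results.P064.FlatCopies
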