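import Vale.Agent.Lib.P064.Final

namespace Vale.Agent.Results.P064.TildeLogBound

open Vale.Agent.Lib.P064

/-- For all `n ≥ 2` and `H` with an edge and at most `n` vertices: if every subgraph of `H` has
expected count at least `1/2` in `G(n,q)`, then `N(H,F) ≤ E N(G(n, min(1, C q log n)), F)` for every
subgraph `F` of `H`; consequently `p̃_E(n,H) ≤ C log n · p_E(n,H)`. -/
theorem result : ∃ C : ℝ, 0 < C ∧ ∀ n : ℕ, 2 ≤ n → ∀ (V : Type) [Fintype V] (H : SimpleGraph V),
    Fintype.card V ≤ n → H ≠ ⊥ →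
      (∀ q : ℝ, 0 ≤ q → q ≤ 1 → (∀ F : H.Subgraph, (1 : ℝ) / 2 ≤ expCount n q F.coe) →
        ∀ F : H.Subgraph, (H.copyCount F.coe : ℝ) ≤
          expCount n (min 1 (C * Real.log n * q)) F.coe) ∧
      pTilde n H ≤ C * Real.log n * pE n H := by
  refine ⟨4000, by norm_num, ?_⟩
  intro n hn V _ H hV hH
  refine ⟨?_, tilde_bound hn H hV hH⟩
  intro q hq0 _ hqF F
  exact pointwise_bound hn H hV hH hq0 hqF F

end Vale.Agent.Results.P064.TildeLogBound
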